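import Vale.Agent.P245.Defs

open MeasureTheory
open scoped ContDiff

namespace Vale.Agent.P245.C339

/-- The pointwise inequality behind `cor`. -/
theorem phi_le {t : ℝ} (ht : 0 ≤ t) :
    t ^ 2 * Real.log (t ^ 2) - t ^ 2 + 1 ≤ 8 * (t - 1) ^ 2 * (1 + max (Real.log t) 0) := by
  rcases ht.eq_or_lt with h0 | hpos
  · subst h0
    simp
  have hlog : Real.log (t ^ 2) = 2 * Real.log t := by
    rw [Real.log_pow]; norm_num
  rw [hlog]
  have h1 : Real.log t ≤ t - 1 := Real.log_le_sub_one_of_pos hpos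
  have hA : t ^ 2 * (2 * Real.log t) - t ^ 2 + 1 ≤ (t - 1) ^ 2 * (2 * t + 1) := by
    nlinarith [sq_nonneg t, mul_le_mul_of_nonneg_left h1 (sq_nonneg t)]
  by_cases h2 : t ≤ 2
  · have hm : 0 ≤ max (Real.log t) 0 := le_max_right _ _
    have hs : 0 ≤ (t - 1) ^ 2 := sq_nonneg _
    have h3 : (t - 1) ^ 2 * (2 * t + 1) ≤ (t - 1) ^ 2 * 8 :=
      mul_le_mul_of_nonneg_left (by linarith) hs
    nlinarith [mul_nonneg hs hm]
  · push Not at h2
    have hl : 0 ≤ Real.log t := Real.log_nonneg (by linarith)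
    have hm : max (Real.log t) 0 = Real.log t := max_eq_left hl
    rw [hm]
    have hs : 0 ≤ (t - 1) ^ 2 := sq_nonneg _
    have h4 : t ^ 2 ≤ 4 * (t - 1) ^ 2 := by nlinarith
    have h5 : t ^ 2 * Real.log t ≤ 4 * (t - 1) ^ 2 * Real.log t :=
      mul_le_mul_of_nonneg_right h4 hl
    nlinarith

/-- Scaled form. -/
theorem phi_scaled {v m M : ℝ} (hv : 0 ≤ v) (hm : 0 < m) (hmM : m ≤ M) (hvM : v ≤ M) :
    v ^ 2 * Real.log (v ^ 2) - v ^ 2 * Real.log (m ^ 2) - v ^ 2 + m ^ 2 ≤
      8 * (1 + Real.log (M / m)) * (v - m) ^ 2 := by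
  have hM : 0 < M := lt_of_lt_of_le hm hmM
  have h := phi_le (t := v / m) (by positivity)
  have hm2 : (0 : ℝ) < m ^ 2 := by positivity
  have e1 : m ^ 2 * ((v / m) ^ 2 * Real.log ((v / m) ^ 2) - (v / m) ^ 2 + 1) =
      v ^ 2 * Real.log (v ^ 2) - v ^ 2 * Real.log (m ^ 2) - v ^ 2 + m ^ 2 := by
    rcases hv.eq_or_lt with h0 | hpos
    · subst h0; simp
    · have : Real.log ((v / m) ^ 2) = Real.log (v ^ 2) - Real.log (m ^ 2) := by
        rw [div_pow, Real.log_div (by positivity) (by positivity)]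
      rw [this]
      field_simp
  have e2 : m ^ 2 * (8 * (v / m - 1) ^ 2 * (1 + max (Real.log (v / m)) 0)) =
      8 * (1 + max (Real.log (v / m)) 0) * (v - m) ^ 2 := by
    field_simp
  have hmax : max (Real.log (v / m)) 0 ≤ Real.log (M / m) := by
    apply max_le
    · rcases hv.eq_or_lt with h0 | hpos
      · subst h0
        simp
        exact Real.log_nonneg (by rw [le_div_iff₀ hm]; linarith)
      · exact Real.log_le_log (by positivity) (div_le_div_of_nonneg_right hvM hm.le)
    · exact Real.log_nonneg (by rw [le_div_iff₀ hm]; linarith)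
  calc v ^ 2 * Real.log (v ^ 2) - v ^ 2 * Real.log (m ^ 2) - v ^ 2 + m ^ 2
      = m ^ 2 * ((v / m) ^ 2 * Real.log ((v / m) ^ 2) - (v / m) ^ 2 + 1) := e1.symm
    _ ≤ m ^ 2 * (8 * (v / m - 1) ^ 2 * (1 + max (Real.log (v / m)) 0)) :=
        mul_le_mul_of_nonneg_left h hm2.le
    _ = 8 * (1 + max (Real.log (v / m)) 0) * (v - m) ^ 2 := e2
    _ ≤ 8 * (1 + Real.log (M / m)) * (v - m) ^ 2 := by
        apply mul_le_mul_of_nonneg_right _ (sq_nonneg _)
        linarith

/-- Entropy of a bounded positive function against its variance. -/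
theorem ent_le_var {n : ℕ} {μ : Measure (EuclideanSpace ℝ (Fin n))} [IsProbabilityMeasure μ]
    {v : EuclideanSpace ℝ (Fin n) → ℝ} (hv : Continuous v) {d M : ℝ} (hd : 0 < d)
    (hdv : ∀ x, d ≤ v x) (hvM : ∀ x, v x ≤ M) :
    Entropy μ (fun x => v x ^ 2) ≤ 8 * (1 + Real.log (M ^ 2 / ∫ x, v x ^ 2 ∂μ)) *
      ((∫ x, v x ^ 2 ∂μ) - (∫ x, v x ∂μ) ^ 2) := by
  have hM : 0 < M := lt_of_lt_of_le hd ((hdv 0).trans (hvM 0))
  have bdd : ∀ g : ℝ → ℝ, ContinuousOn g (Set.Icc d M) → Integrable (fun x => g (v x)) μ := by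
    intro g hg
    obtain ⟨B, hB⟩ := isCompact_Icc.exists_bound_of_continuousOn hg
    have hc : Continuous fun x => g (v x) :=
      hg.comp_continuous hv fun x => ⟨hdv x, hvM x⟩
    refine Integrable.of_bound hc.aestronglyMeasurable B (Filter.Eventually.of_forall fun x => ?_)
    exact hB _ ⟨hdv x, hvM x⟩
  have i1 : Integrable v μ := bdd (fun t => t) continuous_id.continuousOn
  have i2 : Integrable (fun x => v x ^ 2) μ := bdd (fun t => t ^ 2) (by fun_prop)
  have i3 : Integrable (fun x => v x ^ 2 * Real.log (v x ^ 2)) μ := by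
    apply bdd (fun t => t ^ 2 * Real.log (t ^ 2))
    exact (Real.continuous_mul_log.comp (continuous_pow 2)).continuousOn
  set m := ∫ x, v x ∂μ with hm
  set A := ∫ x, v x ^ 2 ∂μ with hA
  have hdm : d ≤ m := by
    have : ∫ _x : EuclideanSpace ℝ (Fin n), d ∂μ ≤ ∫ x, v x ∂μ :=
      integral_mono (integrable_const d) i1 hdv
    simpa using this
  have hm0 : 0 < m := lt_of_lt_of_le hd hdm
  have hmM : m ≤ M := by
    have : ∫ x, v x ∂μ ≤ ∫ _x : EuclideanSpace ℝ (Fin n), M ∂μ :=
      integral_mono i1 (integrable_const M) hvM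
    simpa using this
  have hAm : A ≤ M * m := by
    have : ∫ x, v x ^ 2 ∂μ ≤ ∫ x, M * v x ∂μ := by
      apply integral_mono i2 (i1.const_mul M)
      intro x
      have h1 := hdv x
      have h2 := hvM x
      have : 0 < v x := lt_of_lt_of_le hd h1
      show v x ^ 2 ≤ M * v x
      nlinarith
    rw [integral_const_mul] at this
    exact this
  have hA0 : 0 < A := by
    have : ∫ _x : EuclideanSpace ℝ (Fin n), d ^ 2 ∂μ ≤ ∫ x, v x ^ 2 ∂μ :=
      integral_mono (integrable_const _) i2 fun x => by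
        show d ^ 2 ≤ v x ^ 2
        exact pow_le_pow_left₀ hd.le (hdv x) 2
    have h2 : d ^ 2 ≤ A := by simpa using this
    have : 0 < d ^ 2 := by positivity
    linarith
  -- variance as an integral
  have hvar : ∫ x, (v x - m) ^ 2 ∂μ = A - m ^ 2 := by
    have e : (fun x => (v x - m) ^ 2) = fun x => v x ^ 2 - (2 * m) * v x + m ^ 2 := by
      funext x; ring
    have j1 : Integrable (fun x => (2 * m) * v x) μ := i1.const_mul _
    have j2 : Integrable (fun x => v x ^ 2 - (2 * m) * v x) μ := i2.sub j1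
    have j3 : Integrable (fun _x : EuclideanSpace ℝ (Fin n) => m ^ 2) μ := integrable_const _
    rw [e, integral_add j2 j3, integral_sub i2 j1, integral_const_mul]
    simp only [integral_const, probReal_univ, smul_eq_mul, one_mul]
    rw [← hm, ← hA]
    ring
  have hvar0 : 0 ≤ A - m ^ 2 := by
    rw [← hvar]; exact integral_nonneg fun x => sq_nonneg _
  -- main estimate
  have hmain : (∫ x, v x ^ 2 * Real.log (v x ^ 2) ∂μ) - A * Real.log (m ^ 2) - A + m ^ 2 ≤
      8 * (1 + Real.log (M / m)) * (A - m ^ 2) := by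
    have h1 : ∫ x, (v x ^ 2 * Real.log (v x ^ 2) - v x ^ 2 * Real.log (m ^ 2) - v x ^ 2 + m ^ 2) ∂μ ≤
        ∫ x, 8 * (1 + Real.log (M / m)) * (v x - m) ^ 2 ∂μ := by
      apply integral_mono (((i3.sub (i2.mul_const _)).sub i2).add (integrable_const _))
        ((bdd (fun t => (t - m) ^ 2) (by fun_prop)).const_mul _)
      intro x
      exact phi_scaled (hd.le.trans (hdv x)) hm0 hmM (hvM x)
    rw [integral_const_mul, hvar] at h1
    have h2 : ∫ x, (v x ^ 2 * Real.log (v x ^ 2) - v x ^ 2 * Real.log (m ^ 2) - v x ^ 2 + m ^ 2) ∂μ =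
        (∫ x, v x ^ 2 * Real.log (v x ^ 2) ∂μ) - A * Real.log (m ^ 2) - A + m ^ 2 := by
      have j1 : Integrable (fun x => v x ^ 2 * Real.log (m ^ 2)) μ := i2.mul_const _
      have j2 : Integrable (fun x => v x ^ 2 * Real.log (v x ^ 2) - v x ^ 2 * Real.log (m ^ 2)) μ :=
        i3.sub j1
      have j3 : Integrable (fun x => v x ^ 2 * Real.log (v x ^ 2) - v x ^ 2 * Real.log (m ^ 2) -
        v x ^ 2) μ := j2.sub i2
      have j4 : Integrable (fun _x : EuclideanSpace ℝ (Fin n) => m ^ 2) μ := integrable_const _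
      rw [integral_add j3 j4, integral_sub j2 i2, integral_sub i3 j1, integral_mul_const]
      simp only [integral_const, probReal_univ, smul_eq_mul, one_mul]
      rw [← hA]
    rw [h2] at h1
    exact h1
  have hlogA : A - m ^ 2 ≤ A * Real.log A - A * Real.log (m ^ 2) := by
    have h1 : Real.log (m ^ 2 / A) ≤ m ^ 2 / A - 1 :=
      Real.log_le_sub_one_of_pos (by positivity)
    rw [Real.log_div (by positivity) hA0.ne'] at h1
    have h2 : A * (Real.log (m ^ 2) - Real.log A) ≤ A * (m ^ 2 / A - 1) :=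
      mul_le_mul_of_nonneg_left h1 hA0.le
    have h3 : A * (m ^ 2 / A - 1) = m ^ 2 - A := by field_simp
    rw [h3] at h2
    linarith
  have hlogM : Real.log (M / m) ≤ Real.log (M ^ 2 / A) := by
    apply Real.log_le_log (by positivity)
    rw [div_le_div_iff₀ hm0 hA0]
    nlinarith
  have hfin : 8 * (1 + Real.log (M / m)) * (A - m ^ 2) ≤
      8 * (1 + Real.log (M ^ 2 / A)) * (A - m ^ 2) :=
    mul_le_mul_of_nonneg_right (by linarith) hvar0
  unfold Entropy
  simp only [← hA]
  linarith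

/-- A Poincaré inequality gives the logarithmic Sobolev inequality for functions `f` with
`f² ≤ R ∫ f²`, with the loss `1 + log R`. -/
theorem cor {n : ℕ} {μ : Measure (EuclideanSpace ℝ (Fin n))} [IsProbabilityMeasure μ] {P : ℝ}
    (hP0 : 0 ≤ P)
    (hP : ∀ u : EuclideanSpace ℝ (Fin n) → ℝ, ContDiff ℝ ∞ u → HasCompactSupport u →
      (∫ x, u x ^ 2 ∂μ) - (∫ x, u x ∂μ) ^ 2 ≤ P * ∫ x, ‖gradient u x‖ ^ 2 ∂μ)
    {f : EuclideanSpace ℝ (Fin n) → ℝ} (hf : ContDiff ℝ ∞ f) (hfc : HasCompactSupport f)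
    {R : ℝ} (hR : 1 ≤ R) (hfR : ∀ x, f x ^ 2 ≤ R * ∫ x, f x ^ 2 ∂μ) :
    Entropy μ (fun x => f x ^ 2) ≤ 8 * (1 + Real.log R) * P * ∫ x, ‖gradient f x‖ ^ 2 ∂μ := by
  have hlR : 0 ≤ Real.log R := Real.log_nonneg hR
  have hfcont : Continuous f := hf.continuous
  obtain ⟨B, hB⟩ := hfc.exists_bound_of_continuous hfcont
  have hgc : Continuous fun x => ‖gradient f x‖ ^ 2 := by
    have h1 : Continuous (fderiv ℝ f) := hf.continuous_fderiv (by simp)
    have h2 : Continuous fun x => gradient f x := by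
      unfold gradient
      exact (InnerProductSpace.toDual ℝ (EuclideanSpace ℝ (Fin n))).symm.continuous.comp h1
    exact (h2.norm).pow 2
  have hG : 0 ≤ ∫ x, ‖gradient f x‖ ^ 2 ∂μ := integral_nonneg fun x => by positivity
  have if2 : Integrable (fun x => f x ^ 2) μ := by
    refine Integrable.of_bound (hfcont.pow 2).aestronglyMeasurable (B ^ 2)
      (Filter.Eventually.of_forall fun x => ?_)
    rw [Real.norm_eq_abs, abs_pow]
    exact pow_le_pow_left₀ (abs_nonneg _) (hB x) 2
  set F := ∫ x, f x ^ 2 ∂μ with hF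
  have hF0 : 0 ≤ F := integral_nonneg fun x => sq_nonneg _
  rcases hF0.eq_or_lt with h0 | hFpos
  · have hz : ∀ x, f x ^ 2 = 0 := fun x => by
      have := hfR x
      rw [← h0, mul_zero] at this
      exact le_antisymm this (sq_nonneg _)
    have : Entropy μ (fun x => f x ^ 2) = 0 := by
      unfold Entropy
      simp [hz]
    rw [this]
    positivity
  -- the approximations
  have key : ∀ e : ℝ, 0 < e → Entropy μ (fun x => f x ^ 2 + e ^ 2) ≤
      8 * (1 + Real.log R) * P * ∫ x, ‖gradient f x‖ ^ 2 ∂μ := by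
    intro e he
    have he2 : 0 < e ^ 2 := by positivity
    have hpos : ∀ x, 0 < f x ^ 2 + e ^ 2 := fun x => by positivity
    set v : EuclideanSpace ℝ (Fin n) → ℝ := fun x => Real.sqrt (f x ^ 2 + e ^ 2) with hv
    have hvsq : ∀ x, v x ^ 2 = f x ^ 2 + e ^ 2 := fun x => Real.sq_sqrt (hpos x).le
    have hvdiff : ContDiff ℝ ∞ v :=
      ((hf.pow 2).add contDiff_const).sqrt fun x => (hpos x).ne'
    have hv0 : ∀ x, 0 < v x := fun x => Real.sqrt_pos.2 (hpos x)
    have hev : ∀ x, e ≤ v x := fun x => by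
      apply Real.le_sqrt_of_sq_le
      nlinarith [sq_nonneg (f x)]
    have hM : ∀ x, v x ≤ Real.sqrt (R * F + e ^ 2) := fun x =>
      Real.sqrt_le_sqrt (by linarith [hfR x])
    -- the compactly supported version
    have hu : ContDiff ℝ ∞ fun x => v x - e := hvdiff.sub contDiff_const
    have huc : HasCompactSupport fun x => v x - e := by
      refine hfc.mono' ?_
      intro x hx
      apply subset_tsupport
      intro h
      apply hx
      show v x - e = 0
      rw [hv]
      simp only [h]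
      rw [zero_pow two_ne_zero, zero_add, Real.sqrt_sq he.le, sub_self]
    have hgrad : ∀ x, ‖gradient (fun x => v x - e) x‖ ≤ ‖gradient f x‖ := by
      intro x
      have hfd : HasFDerivAt f (fderiv ℝ f x) x :=
        (hf.differentiable (by simp) x).hasFDerivAt
      have h2 : HasFDerivAt (fun x => f x ^ 2 + e ^ 2) ((2 * f x) • fderiv ℝ f x) x := by
        have := (hfd.pow 2).add_const (e ^ 2)
        have h : (2 • f x ^ (2 - 1)) • fderiv ℝ f x = (2 * f x) • fderiv ℝ f x := by
          congr 1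
          simp
        rw [h] at this
        exact this
      have h3 : HasFDerivAt v ((1 / (2 * Real.sqrt (f x ^ 2 + e ^ 2))) •
          ((2 * f x) • fderiv ℝ f x)) x := h2.sqrt (hpos x).ne'
      have h4 : HasFDerivAt (fun x => v x - e) ((1 / (2 * Real.sqrt (f x ^ 2 + e ^ 2))) •
          ((2 * f x) • fderiv ℝ f x)) x := h3.sub_const e
      have h5 : ‖gradient (fun x => v x - e) x‖ = ‖fderiv ℝ (fun x => v x - e) x‖ := by
        unfold gradient; simp
      have h6 : ‖gradient f x‖ = ‖fderiv ℝ f x‖ := by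
        unfold gradient; simp
      rw [h5, h6, h4.fderiv, smul_smul, norm_smul]
      have h7 : ‖(1 / (2 * Real.sqrt (f x ^ 2 + e ^ 2))) * (2 * f x)‖ ≤ 1 := by
        have hs : 0 < Real.sqrt (f x ^ 2 + e ^ 2) := hv0 x
        have : (1 / (2 * Real.sqrt (f x ^ 2 + e ^ 2))) * (2 * f x) =
            f x / Real.sqrt (f x ^ 2 + e ^ 2) := by field_simp
        rw [this, Real.norm_eq_abs, abs_div, abs_of_pos hs, div_le_one hs]
        apply Real.abs_le_sqrt
        linarith
      calc ‖(1 / (2 * Real.sqrt (f x ^ 2 + e ^ 2))) * (2 * f x)‖ * ‖fderiv ℝ f x‖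
          ≤ 1 * ‖fderiv ℝ f x‖ := mul_le_mul_of_nonneg_right h7 (norm_nonneg _)
        _ = ‖fderiv ℝ f x‖ := one_mul _
    have hPu := hP _ hu huc
    -- integrability
    have iv : Integrable v μ := by
      refine Integrable.of_bound hvdiff.continuous.aestronglyMeasurable (Real.sqrt (R * F + e ^ 2))
        (Filter.Eventually.of_forall fun x => ?_)
      rw [Real.norm_eq_abs, abs_of_pos (hv0 x)]
      exact hM x
    have iv2 : Integrable (fun x => v x ^ 2) μ := by
      have : (fun x => v x ^ 2) = fun x => f x ^ 2 + e ^ 2 := funext hvsq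
      rw [this]
      exact if2.add (integrable_const _)
    have iv2int : ∫ x, v x ^ 2 ∂μ = F + e ^ 2 := by
      have h1 : (fun x => v x ^ 2) = fun x => f x ^ 2 + e ^ 2 := funext hvsq
      have j : Integrable (fun _x : EuclideanSpace ℝ (Fin n) => e ^ 2) μ := integrable_const _
      rw [h1, integral_add if2 j]
      simp [← hF]
    have hvaru : (∫ x, (v x - e) ^ 2 ∂μ) - (∫ x, (v x - e) ∂μ) ^ 2 =
        (∫ x, v x ^ 2 ∂μ) - (∫ x, v x ∂μ) ^ 2 := by
      have j1 : Integrable (fun x => (2 * e) * v x) μ := iv.const_mul _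
      have j2 : Integrable (fun x => v x ^ 2 - (2 * e) * v x) μ := iv2.sub j1
      have j3 : Integrable (fun _x : EuclideanSpace ℝ (Fin n) => e ^ 2) μ := integrable_const _
      have j4 : Integrable (fun _x : EuclideanSpace ℝ (Fin n) => e) μ := integrable_const _
      have e1 : (fun x => (v x - e) ^ 2) = fun x => v x ^ 2 - (2 * e) * v x + e ^ 2 := by
        funext x; ring
      rw [e1, integral_add j2 j3, integral_sub iv2 j1, integral_const_mul, integral_sub iv j4]
      simp only [integral_const, probReal_univ, smul_eq_mul, one_mul]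
      ring
    have hPv : (∫ x, v x ^ 2 ∂μ) - (∫ x, v x ∂μ) ^ 2 ≤ P * ∫ x, ‖gradient f x‖ ^ 2 ∂μ := by
      rw [← hvaru]
      refine hPu.trans (mul_le_mul_of_nonneg_left ?_ hP0)
      have hgb : ∃ D, ∀ x, ‖‖gradient f x‖ ^ 2‖ ≤ D := by
        have hc : HasCompactSupport fun x => ‖gradient f x‖ ^ 2 := by
          have h1 : HasCompactSupport (fderiv ℝ f) := hfc.fderiv (𝕜 := ℝ)
          refine h1.mono' ?_
          intro x hx
          apply subset_tsupport
          intro h
          apply hx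
          show ‖gradient f x‖ ^ 2 = 0
          have h6 : ‖gradient f x‖ = ‖fderiv ℝ f x‖ := by
            unfold gradient; simp
          rw [h6, h]
          simp
        exact hc.exists_bound_of_continuous hgc
      obtain ⟨D, hD⟩ := hgb
      have ig : Integrable (fun x => ‖gradient f x‖ ^ 2) μ :=
        Integrable.of_bound hgc.aestronglyMeasurable D (Filter.Eventually.of_forall hD)
      apply integral_mono_of_nonneg (Filter.Eventually.of_forall fun x => by positivity) ig
      exact Filter.Eventually.of_forall fun x =>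
        pow_le_pow_left₀ (norm_nonneg _) (hgrad x) 2
    have hE := ent_le_var (μ := μ) hvdiff.continuous he hev hM
    rw [iv2int] at hE
    have hlog : Real.log (Real.sqrt (R * F + e ^ 2) ^ 2 / (F + e ^ 2)) ≤ Real.log R := by
      have h1 : 0 < R * F + e ^ 2 := by positivity
      rw [Real.sq_sqrt h1.le]
      apply Real.log_le_log (by positivity)
      rw [div_le_iff₀ (by positivity)]
      nlinarith
    have hvar0 : 0 ≤ F + e ^ 2 - (∫ x, v x ∂μ) ^ 2 := by
      have h1 : (∫ x, v x ∂μ) ^ 2 ≤ ∫ x, v x ^ 2 ∂μ := by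
        have h2 : 0 ≤ ∫ x, (v x - ∫ y, v y ∂μ) ^ 2 ∂μ := integral_nonneg fun x => sq_nonneg _
        have e1 : (fun x => (v x - ∫ y, v y ∂μ) ^ 2) =
            fun x => v x ^ 2 - (2 * ∫ y, v y ∂μ) * v x + (∫ y, v y ∂μ) ^ 2 := by
          funext x; ring
        have j1 : Integrable (fun x => (2 * ∫ y, v y ∂μ) * v x) μ := iv.const_mul _
        have j2 : Integrable (fun x => v x ^ 2 - (2 * ∫ y, v y ∂μ) * v x) μ := iv2.sub j1
        have j3 : Integrable (fun _x : EuclideanSpace ℝ (Fin n) => (∫ y, v y ∂μ) ^ 2) μ :=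
          integrable_const _
        rw [e1, integral_add j2 j3, integral_sub iv2 j1, integral_const_mul] at h2
        simp only [integral_const, probReal_univ, smul_eq_mul, one_mul] at h2
        nlinarith
      rw [iv2int] at h1
      linarith
    have hent : Entropy μ (fun x => f x ^ 2 + e ^ 2) = Entropy μ (fun x => v x ^ 2) := by
      have : (fun x => v x ^ 2) = fun x => f x ^ 2 + e ^ 2 := funext hvsq
      rw [this]
    rw [hent]
    rw [iv2int] at hPv
    calc Entropy μ (fun x => v x ^ 2)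
        ≤ 8 * (1 + Real.log (Real.sqrt (R * F + e ^ 2) ^ 2 / (F + e ^ 2))) *
          (F + e ^ 2 - (∫ x, v x ∂μ) ^ 2) := hE
      _ ≤ 8 * (1 + Real.log R) * (F + e ^ 2 - (∫ x, v x ∂μ) ^ 2) :=
          mul_le_mul_of_nonneg_right (by linarith) hvar0
      _ ≤ 8 * (1 + Real.log R) * (P * ∫ x, ‖gradient f x‖ ^ 2 ∂μ) :=
          mul_le_mul_of_nonneg_left hPv (by positivity)
      _ = 8 * (1 + Real.log R) * P * ∫ x, ‖gradient f x‖ ^ 2 ∂μ := by ring
  -- passage to the limit
  have hlim : Filter.Tendsto (fun k : ℕ => Entropy μ (fun x => f x ^ 2 + (1 / ((k : ℝ) + 1)) ^ 2))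
      Filter.atTop (nhds (Entropy μ (fun x => f x ^ 2))) := by
    have hek : Filter.Tendsto (fun k : ℕ => (1 / ((k : ℝ) + 1)) ^ 2) Filter.atTop (nhds 0) := by
      have := (tendsto_one_div_add_atTop_nhds_zero_nat (𝕜 := ℝ)).pow 2
      simpa using this
    have hek1 : ∀ k : ℕ, (1 / ((k : ℝ) + 1)) ^ 2 ≤ 1 := fun k => by
      have : 1 / ((k : ℝ) + 1) ≤ 1 := by
        rw [div_le_one (by positivity)]
        linarith [Nat.cast_nonneg (α := ℝ) k]
      exact pow_le_one₀ (by positivity) this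
    have hek0 : ∀ k : ℕ, 0 ≤ (1 / ((k : ℝ) + 1)) ^ 2 := fun k => by positivity
    obtain ⟨D, hD⟩ := (isCompact_Icc (a := (0 : ℝ)) (b := B ^ 2 + 1)).exists_bound_of_continuousOn
      Real.continuous_mul_log.continuousOn
    have hfB : ∀ x, f x ^ 2 ≤ B ^ 2 := fun x => by
      have h1 := hB x
      rw [Real.norm_eq_abs] at h1
      calc f x ^ 2 = |f x| ^ 2 := (sq_abs _).symm
        _ ≤ B ^ 2 := pow_le_pow_left₀ (abs_nonneg _) h1 2
    have t1 : Filter.Tendsto (fun k : ℕ => ∫ x, (f x ^ 2 + (1 / ((k : ℝ) + 1)) ^ 2) *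
        Real.log (f x ^ 2 + (1 / ((k : ℝ) + 1)) ^ 2) ∂μ) Filter.atTop
        (nhds (∫ x, f x ^ 2 * Real.log (f x ^ 2) ∂μ)) := by
      apply tendsto_integral_of_dominated_convergence (fun _ => D)
      · intro k
        exact (Real.continuous_mul_log.comp
          ((hfcont.pow 2).add continuous_const)).aestronglyMeasurable
      · exact integrable_const D
      · intro k
        refine Filter.Eventually.of_forall fun x => ?_
        apply hD
        constructor
        · have := hek0 k
          positivity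
        · linarith [hek1 k, hfB x]
      · refine Filter.Eventually.of_forall fun x => ?_
        have h1 : Filter.Tendsto (fun k : ℕ => f x ^ 2 + (1 / ((k : ℝ) + 1)) ^ 2) Filter.atTop
            (nhds (f x ^ 2)) := by
          simpa using (tendsto_const_nhds (x := f x ^ 2)).add hek
        exact (Real.continuous_mul_log.tendsto (f x ^ 2)).comp h1
    have t2 : Filter.Tendsto (fun k : ℕ => ∫ x, (f x ^ 2 + (1 / ((k : ℝ) + 1)) ^ 2) ∂μ)
        Filter.atTop (nhds F) := by
      have h1 : ∀ k : ℕ, ∫ x, (f x ^ 2 + (1 / ((k : ℝ) + 1)) ^ 2) ∂μ =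
          F + (1 / ((k : ℝ) + 1)) ^ 2 := fun k => by
        have j : Integrable (fun _x : EuclideanSpace ℝ (Fin n) => (1 / ((k : ℝ) + 1)) ^ 2) μ :=
          integrable_const _
        rw [integral_add if2 j]
        simp only [integral_const, probReal_univ, smul_eq_mul, one_mul]
        rw [← hF]
      simp only [h1]
      simpa using (tendsto_const_nhds (x := F)).add hek
    unfold Entropy
    exact t1.sub ((Real.continuous_mul_log.tendsto F).comp t2)
  exact le_of_tendsto hlim (Filter.Eventually.of_forall fun k => key _ (by positivity))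

end Vale.Agent.P245.C339
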